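import Mathlib

/-!
# Petal permutations (row 55 / S0076, conditional infrastructure)

`petalPerm g hg ρ` is the permutation of `Fin n` that permutes `M` pairwise disjoint "petals"
`g (i, ·)` (`i : Fin M`) according to `ρ : Equiv.Perm (Fin M)` and fixes every point outside the
range of `g`.  Requested by helper68 (board #5928, leaf (A2)).
-/

set_option autoImplicit false

namespace Crest.Agent.Helper84.S0076

open Classical in
/-- The permutation of `Fin n` that moves the petal `g (i, ·)` onto the petal `g (ρ i, ·)` and
fixes everything outside the range of `g`. -/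
noncomputable def petalPerm {n M : ℕ} {D : Type} (g : Fin M × D → Fin n)
    (hg : Function.Injective g) (ρ : Equiv.Perm (Fin M)) : Equiv.Perm (Fin n) :=
  Equiv.Perm.extendDomain (Equiv.prodCongr ρ (Equiv.refl D) : Equiv.Perm (Fin M × D))
    (Equiv.ofInjective g hg)

lemma petalPerm_apply {n M : ℕ} {D : Type} (g : Fin M × D → Fin n)
    (hg : Function.Injective g) (ρ : Equiv.Perm (Fin M)) (i : Fin M) (d : D) :
    petalPerm g hg ρ (g (i, d)) = g (ρ i, d) := by
  classical
  have h := Equiv.Perm.extendDomain_apply_image
    (Equiv.prodCongr ρ (Equiv.refl D) : Equiv.Perm (Fin M × D)) (Equiv.ofInjective g hg) (i, d)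
  simpa [petalPerm, Equiv.ofInjective_apply] using h

lemma petalPerm_apply_of_not_range {n M : ℕ} {D : Type} (g : Fin M × D → Fin n)
    (hg : Function.Injective g) (ρ : Equiv.Perm (Fin M)) (x : Fin n)
    (hx : x ∉ Set.range g) : petalPerm g hg ρ x = x := by
  classical
  unfold petalPerm
  exact Equiv.Perm.extendDomain_apply_not_subtype
    (Equiv.prodCongr ρ (Equiv.refl D) : Equiv.Perm (Fin M × D)) (Equiv.ofInjective g hg) hx

lemma petalPerm_injective {n M : ℕ} {D : Type} (g : Fin M × D → Fin n)
    (hg : Function.Injective g) [Nonempty D] : Function.Injective (petalPerm g hg) := by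
  classical
  intro ρ ρ' h
  obtain ⟨d⟩ := ‹Nonempty D›
  ext i
  have h1 := petalPerm_apply g hg ρ i d
  have h2 := petalPerm_apply g hg ρ' i d
  rw [h] at h1
  have h3 : g (ρ i, d) = g (ρ' i, d) := by rw [← h1, ← h2]
  have h4 := hg h3
  exact congrArg Fin.val (congrArg Prod.fst h4)

end Crest.Agent.Helper84.S0076
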