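import Mathlib
import Crest.Agent.Helper52.PP.Count

/-!
# Row 55 (S0076), conditional dense-regime infrastructure: three leaves (helper84)

Leaves requested by helper68 for the Lean form of helper16's Theorem D' (dense regime):

* `exists_orientation` (L2): Hakimi's orientation lemma via Hall's marriage theorem;
* `pow_le_exp_mul_descFactorial` (L5): `n^v ≤ e^v (n)_v` for `v ≤ n`;
* `codeg_numeric` (L6): the numeric core of the biclique codegree bound.

Conditional package: nothing here proves a statement of the row.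
-/

set_option autoImplicit false

namespace Crest.Agent.Helper84.S0076

open Finset Crest.CombinatoricsR.RandomGraph Crest.Agent.Helper52.PP

/-- (L5) `n^v ≤ e^v (n)_v` for `v ≤ n`. -/
theorem pow_le_exp_mul_descFactorial (n v : ℕ) (hv : v ≤ n) :
    (n : ℝ) ^ v ≤ Real.exp v * (n.descFactorial v : ℝ) := by
  -- termwise: `n (v - i) ≤ v (n - i)`, so `n^v v! ≤ v^v (n)_v`
  have hnat : n ^ v * v.factorial ≤ v ^ v * n.descFactorial v := by
    have h1 : n ^ v * v.factorial = ∏ i ∈ Finset.range v, n * (v - i) := by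
      rw [Finset.prod_mul_distrib, Finset.prod_const, Finset.card_range,
        ← Nat.descFactorial_eq_prod_range, Nat.descFactorial_self]
    have h2 : v ^ v * n.descFactorial v = ∏ i ∈ Finset.range v, v * (n - i) := by
      rw [Finset.prod_mul_distrib, Finset.prod_const, Finset.card_range,
        ← Nat.descFactorial_eq_prod_range]
    rw [h1, h2]
    apply Finset.prod_le_prod'
    intro i hi
    rw [Finset.mem_range] at hi
    obtain ⟨d, rfl⟩ : ∃ d, v = i + d := ⟨v - i, by omega⟩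
    obtain ⟨c, rfl⟩ : ∃ c, n = i + d + c := ⟨n - (i + d), by omega⟩
    have e1 : i + d - i = d := by omega
    have e2 : i + d + c - i = d + c := by omega
    rw [e1, e2]
    nlinarith [Nat.zero_le (i * c), Nat.zero_le (d * c)]
  have hreal : (n : ℝ) ^ v * (v.factorial : ℝ) ≤ (v : ℝ) ^ v * (n.descFactorial v : ℝ) := by
    exact_mod_cast hnat
  have hexp : (v : ℝ) ^ v ≤ Real.exp v * (v.factorial : ℝ) := by
    have h := Real.pow_div_factorial_le_exp (x := (v : ℝ)) (by positivity) v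
    rwa [div_le_iff₀ (by positivity)] at h
  have hfpos : (0 : ℝ) < (v.factorial : ℝ) := by exact_mod_cast Nat.factorial_pos v
  have hd0 : (0 : ℝ) ≤ (n.descFactorial v : ℝ) := by positivity
  have h3 : (n : ℝ) ^ v * (v.factorial : ℝ)
      ≤ (Real.exp v * (n.descFactorial v : ℝ)) * (v.factorial : ℝ) := by
    calc (n : ℝ) ^ v * (v.factorial : ℝ) ≤ (v : ℝ) ^ v * (n.descFactorial v : ℝ) := hreal
      _ ≤ (Real.exp v * (v.factorial : ℝ)) * (n.descFactorial v : ℝ) :=
          mul_le_mul_of_nonneg_right hexp hd0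
      _ = _ := by ring
  exact le_of_mul_le_mul_right h3 hfpos

/-- (L6) numeric core of the codegree bound: if `K_{b,t}` is feasible
(`t! ≤ 2 (n)_{b+t} p^{bt}`), `C ≥ e^2` and `2n ≤ exp(n (Cp)^b)`, then `t ≤ n (Cp)^b`. -/
theorem codeg_numeric (n b t : ℕ) (p C : ℝ) (hb : 1 ≤ b) (hn : 1 ≤ n) (hp0 : 0 < p)
    (hC : Real.exp 2 ≤ C)
    (hfac : (t.factorial : ℝ) ≤ 2 * (n.descFactorial (b + t) : ℝ) * p ^ (b * t))
    (hH1 : (2 * n : ℝ) ≤ Real.exp (n * (C * p) ^ b)) :
    (t : ℝ) ≤ n * (C * p) ^ b := by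
  by_contra hcon
  have hlt : (n : ℝ) * (C * p) ^ b < (t : ℝ) := not_le.1 hcon
  have hnpos : (0 : ℝ) < (n : ℝ) := by exact_mod_cast hn
  have hCpos : 0 < C := lt_of_lt_of_le (Real.exp_pos 2) hC
  set x : ℝ := (n : ℝ) * p ^ b with hx
  have hxpos : 0 < x := by positivity
  have hΛ : (n : ℝ) * (C * p) ^ b = x * C ^ b := by rw [hx, mul_pow]; ring
  have hΛpos : (0 : ℝ) < (n : ℝ) * (C * p) ^ b := by positivity
  have htpos : (0 : ℝ) < (t : ℝ) := lt_trans hΛpos hlt
  have ht0 : t ≠ 0 := by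
    intro h0
    rw [h0] at htpos
    simp at htpos
  -- `t^t ≤ e^t t!`
  have h1 : (t : ℝ) ^ t ≤ Real.exp t * (t.factorial : ℝ) := by
    have h := Real.pow_div_factorial_le_exp (x := (t : ℝ)) (by positivity) t
    rwa [div_le_iff₀ (by positivity)] at h
  have h2 : (n.descFactorial (b + t) : ℝ) ≤ (n : ℝ) ^ (b + t) := by
    exact_mod_cast Nat.descFactorial_le_pow n (b + t)
  have hpt : (0 : ℝ) ≤ p ^ (b * t) := by positivity
  have h3 : (t : ℝ) ^ t ≤ 2 * (n : ℝ) ^ b * (Real.exp 1 * x) ^ t := by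
    calc (t : ℝ) ^ t ≤ Real.exp t * (t.factorial : ℝ) := h1
      _ ≤ Real.exp t * (2 * (n : ℝ) ^ (b + t) * p ^ (b * t)) := by
          apply mul_le_mul_of_nonneg_left _ (Real.exp_pos _).le
          calc (t.factorial : ℝ) ≤ 2 * (n.descFactorial (b + t) : ℝ) * p ^ (b * t) := hfac
            _ ≤ 2 * (n : ℝ) ^ (b + t) * p ^ (b * t) := by
                apply mul_le_mul_of_nonneg_right _ hpt
                linarith
      _ = 2 * (n : ℝ) ^ b * (Real.exp 1 * x) ^ t := by
          have he : Real.exp 1 ^ t = Real.exp t := by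
            rw [← Real.exp_nat_mul, mul_one]
          rw [hx, mul_pow, mul_pow, he, pow_add, pow_mul]
          ring
  -- `x e^{2b} ≤ x C^b < t`
  have hCb : Real.exp 2 ^ b ≤ C ^ b := pow_le_pow_left₀ (Real.exp_pos 2).le hC b
  have h4 : x * Real.exp 2 ^ b < (t : ℝ) := by
    calc x * Real.exp 2 ^ b ≤ x * C ^ b := mul_le_mul_of_nonneg_left hCb hxpos.le
      _ = (n : ℝ) * (C * p) ^ b := hΛ.symm
      _ < t := hlt
  have h5 : (x * Real.exp 2 ^ b) ^ t < (t : ℝ) ^ t :=
    pow_lt_pow_left₀ h4 (by positivity) ht0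
  have h6 : (x * Real.exp 2 ^ b) ^ t < 2 * (n : ℝ) ^ b * (Real.exp 1 * x) ^ t :=
    lt_of_lt_of_le h5 h3
  -- divide by `x^t`
  have hxt : (0 : ℝ) < x ^ t := by positivity
  have h7 : (Real.exp 2 ^ b) ^ t < 2 * (n : ℝ) ^ b * Real.exp 1 ^ t := by
    have h8 : (Real.exp 2 ^ b) ^ t * x ^ t < (2 * (n : ℝ) ^ b * Real.exp 1 ^ t) * x ^ t := by
      calc (Real.exp 2 ^ b) ^ t * x ^ t = (x * Real.exp 2 ^ b) ^ t := by rw [mul_pow]; ring
        _ < 2 * (n : ℝ) ^ b * (Real.exp 1 * x) ^ t := h6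
        _ = (2 * (n : ℝ) ^ b * Real.exp 1 ^ t) * x ^ t := by rw [mul_pow]; ring
    exact lt_of_mul_lt_mul_right h8 hxt.le
  -- `2 n^b ≤ (2n)^b ≤ exp(t)^b`
  have h9 : (2 : ℝ) * (n : ℝ) ^ b ≤ Real.exp t ^ b := by
    have hb0 : b ≠ 0 := by omega
    have h2n : (2 * (n : ℝ)) ≤ Real.exp t :=
      le_trans hH1 (Real.exp_le_exp.2 hlt.le)
    have h2pow : (2 : ℝ) ≤ 2 ^ b := by
      calc (2 : ℝ) = 2 ^ 1 := by norm_num
        _ ≤ 2 ^ b := pow_le_pow_right₀ (by norm_num) hb
    calc (2 : ℝ) * (n : ℝ) ^ b ≤ 2 ^ b * (n : ℝ) ^ b :=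
          mul_le_mul_of_nonneg_right h2pow (by positivity)
      _ = (2 * (n : ℝ)) ^ b := by rw [mul_pow]
      _ ≤ Real.exp t ^ b := pow_le_pow_left₀ (by positivity) h2n b
  -- compare exponents
  have h10 : (Real.exp 2 ^ b) ^ t = Real.exp ((t : ℝ) * ((b : ℝ) * 2)) := by
    rw [← Real.exp_nat_mul, ← Real.exp_nat_mul]
  have h11 : Real.exp t ^ b * Real.exp 1 ^ t = Real.exp ((b : ℝ) * t + (t : ℝ) * 1) := by
    rw [← Real.exp_nat_mul, ← Real.exp_nat_mul, ← Real.exp_add]
  have h12 : Real.exp ((t : ℝ) * ((b : ℝ) * 2)) < Real.exp ((b : ℝ) * t + (t : ℝ) * 1) := by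
    rw [← h10, ← h11]
    calc (Real.exp 2 ^ b) ^ t < 2 * (n : ℝ) ^ b * Real.exp 1 ^ t := h7
      _ ≤ Real.exp t ^ b * Real.exp 1 ^ t :=
          mul_le_mul_of_nonneg_right h9 (by positivity)
  have h13 := Real.exp_lt_exp.1 h12
  have hb1 : (1 : ℝ) ≤ (b : ℝ) := by exact_mod_cast hb
  nlinarith

/-- (L2) Hakimi's orientation lemma via Hall's theorem: if every sub-family `A` of the slots
`E₀` has at most `k |vset A|` members, the slots of `E₀` can be oriented (a head `hd s ∈ s`
chosen for every slot) so that every vertex is the head of at most `k` slots of `E₀`. -/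
theorem exists_orientation {n : ℕ} (E₀ : Finset (EdgeSlot n)) (k : ℕ)
    (hdens : ∀ A ⊆ E₀, A.card ≤ k * (vset A).card) :
    ∃ hd : EdgeSlot n → Fin n, (∀ s ∈ E₀, hd s ∈ s.1) ∧
      ∀ v, (E₀.filter (fun s => hd s = v)).card ≤ k := by
  classical
  let t : {s // s ∈ E₀} → Finset (Fin n × Fin k) :=
    fun s => s.1.1.toFinset ×ˢ (Finset.univ : Finset (Fin k))
  have hall : ∀ S : Finset {s // s ∈ E₀}, S.card ≤ (S.biUnion t).card := by
    intro S
    set A : Finset (EdgeSlot n) := S.map (Function.Embedding.subtype _) with hA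
    have hAsub : A ⊆ E₀ := by
      intro s hs
      rw [hA, Finset.mem_map] at hs
      obtain ⟨s', _, rfl⟩ := hs
      exact s'.2
    have hAcard : A.card = S.card := Finset.card_map _
    have hbi : S.biUnion t = vset A ×ˢ (Finset.univ : Finset (Fin k)) := by
      ext ⟨v, j⟩
      simp only [Finset.mem_biUnion, Finset.mem_product, Finset.mem_univ, and_true, t,
        Sym2.mem_toFinset, mem_vset]
      constructor
      · rintro ⟨s, hs, hv⟩
        refine ⟨s.1, ?_, hv⟩
        rw [hA, Finset.mem_map]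
        exact ⟨s, hs, rfl⟩
      · rintro ⟨s, hs, hv⟩
        rw [hA, Finset.mem_map] at hs
        obtain ⟨s', hs', rfl⟩ := hs
        exact ⟨s', hs', hv⟩
    rw [hbi, Finset.card_product, Finset.card_univ, Fintype.card_fin, ← hAcard, mul_comm]
    exact hdens A hAsub
  obtain ⟨f, hfinj, hfmem⟩ :=
    (Finset.all_card_le_biUnion_card_iff_exists_injective t).1 hall
  refine ⟨fun s => if h : s ∈ E₀ then (f ⟨s, h⟩).1 else s.1.out.1, ?_, ?_⟩
  · intro s hs
    simp only [dif_pos hs]
    have h := hfmem ⟨s, hs⟩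
    simp only [t, Finset.mem_product, Sym2.mem_toFinset] at h
    exact h.1
  · intro v
    have hcard : ((Finset.univ : Finset (Fin k)).map Function.Embedding.some).card = k := by
      rw [Finset.card_map, Finset.card_univ, Fintype.card_fin]
    refine le_of_le_of_eq ?_ hcard
    apply Finset.card_le_card_of_injOn
      (fun s => if h : s ∈ E₀ then some (f ⟨s, h⟩).2 else none)
    · intro s hs
      have hs' := Finset.mem_filter.1 (Finset.mem_coe.1 hs)
      simp only [dif_pos hs'.1, Finset.coe_map, Function.Embedding.some_apply, Set.mem_image,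
        Finset.mem_coe, Finset.mem_univ, true_and]
      exact ⟨_, rfl⟩
    · intro s hs s' hs' heq
      have h1 := Finset.mem_filter.1 (Finset.mem_coe.1 hs)
      have h2 := Finset.mem_filter.1 (Finset.mem_coe.1 hs')
      simp only [dif_pos h1.1, dif_pos h2.1, Option.some.injEq] at heq
      have hv1 : (f ⟨s, h1.1⟩).1 = v := by
        have := h1.2
        simpa only [dif_pos h1.1] using this
      have hv2 : (f ⟨s', h2.1⟩).1 = v := by
        have := h2.2
        simpa only [dif_pos h2.1] using this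
      have hff : f ⟨s, h1.1⟩ = f ⟨s', h2.1⟩ := Prod.ext (hv1.trans hv2.symm) heq
      have := hfinj hff
      exact congrArg Subtype.val this

end Crest.Agent.Helper84.S0076
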