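import Mathlib
import Crest.Agent.Helper77.S0076.ClosureDefs
import Crest.Agent.Helper68.S0076.DenseGlue

/-!
# Components of a pattern (helper84; conditional leaves for helper77's formalisation of
helper68's closure theorem, row 55)

Three leaves about `injCount` (helper52, `PP/Count.lean`), requested by helper77:

* `injCount_union_le`       : `inj(T₁ ∪ T₂, H) ≤ inj(T₁, H) · inj(T₂, H)`  (restrict an injective
                              homomorphism to the two vertex sets; no disjointness is needed);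
* `injCount_le_of_patConn`  : a bound `inj(T, H) ≤ c^|T| n^{v_T}` for all CONNECTED patterns
                              (`PatConn`, helper77) extends to all patterns (split off a part with
                              a disjoint vertex set: edge and vertex numbers add);
* `injCount_le_card_embs`   : `inj(T, H) ≤ |embs (slots H f₀) T|` (an injective homomorphism `g`
                              gives the embedding `extMap T f₀ g` of helper68's `DenseGlue`), with
                              the membership `extMap_mem_embs`.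

Nothing here proves a spread bound.
-/

set_option autoImplicit false
set_option linter.unusedSectionVars false
set_option linter.unusedVariables false

namespace Crest.Agent.Helper84.S0076

open Finset Crest.CombinatoricsR.RandomGraph Crest.Agent.Helper52.PP
  Crest.Agent.Helper77.S0076 Crest.Agent.Helper68.S0076.Dense

variable {n : ℕ} {W : Type} [Fintype W] [DecidableEq W]

lemma vset_mono {T' T : Finset (EdgeSlot n)} (h : T' ⊆ T) : vset T' ⊆ vset T := by
  intro v hv
  obtain ⟨s, hs, hvs⟩ := (mem_vset T' v).1 hv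
  exact (mem_vset T v).2 ⟨s, h hs, hvs⟩

lemma vset_union (T₁ T₂ : Finset (EdgeSlot n)) : vset (T₁ ∪ T₂) = vset T₁ ∪ vset T₂ := by
  ext v
  rw [Finset.mem_union, mem_vset, mem_vset, mem_vset]
  constructor
  · rintro ⟨s, hs, hvs⟩
    rcases Finset.mem_union.1 hs with h | h
    · exact Or.inl ⟨s, h, hvs⟩
    · exact Or.inr ⟨s, h, hvs⟩
  · rintro (⟨s, hs, hvs⟩ | ⟨s, hs, hvs⟩)
    · exact ⟨s, Finset.mem_union_left _ hs, hvs⟩
    · exact ⟨s, Finset.mem_union_right _ hs, hvs⟩

lemma vset_empty : vset (∅ : Finset (EdgeSlot n)) = ∅ := by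
  ext v
  rw [mem_vset]
  constructor
  · rintro ⟨s, hs, -⟩
    exact absurd hs (Finset.notMem_empty s)
  · intro hv
    exact absurd hv (Finset.notMem_empty v)

/-- Restriction of an injective homomorphism to a sub-pattern. -/
def restr (H : SimpleGraph W) {T' T : Finset (EdgeSlot n)} (h : T' ⊆ T)
    (g : {g : {v // v ∈ vset T} ↪ W // IsHom H T g}) :
    {g : {v // v ∈ vset T'} ↪ W // IsHom H T' g} :=
  ⟨⟨fun v => g.1 ⟨v.1, vset_mono h v.2⟩, fun v v' hvv => by
      have h1 := g.1.injective hvv
      have h2 : v.1 = v'.1 := congrArg (fun x : {v // v ∈ vset T} => x.1) h1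
      exact Subtype.ext h2⟩,
    fun a b hab => by
      obtain ⟨s, hs, hsab⟩ := hab
      exact g.2 ⟨a.1, vset_mono h a.2⟩ ⟨b.1, vset_mono h b.2⟩ ⟨s, h hs, hsab⟩⟩

lemma restr_apply (H : SimpleGraph W) {T' T : Finset (EdgeSlot n)} (h : T' ⊆ T)
    (g : {g : {v // v ∈ vset T} ↪ W // IsHom H T g}) (v : Fin n) (hv : v ∈ vset T') :
    (restr H h g).1 ⟨v, hv⟩ = g.1 ⟨v, vset_mono h hv⟩ := rfl

/-- **(Q1a)** Submultiplicativity of the number of injective homomorphisms over a union of
patterns (no disjointness needed). -/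
theorem injCount_union_le (H : SimpleGraph W) (T₁ T₂ : Finset (EdgeSlot n)) :
    injCount H (T₁ ∪ T₂) ≤ injCount H T₁ * injCount H T₂ := by
  unfold injCount
  rw [← Nat.card_prod]
  apply Nat.card_le_card_of_injective
    (fun g => (restr H (Finset.subset_union_left (s₁ := T₁) (s₂ := T₂)) g,
      restr H (Finset.subset_union_right (s₁ := T₁) (s₂ := T₂)) g))
  intro g g' hgg
  have h1 := congrArg Prod.fst hgg
  have h2 := congrArg Prod.snd hgg
  simp only at h1 h2
  apply Subtype.ext
  apply DFunLike.ext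
  rintro ⟨v, hv⟩
  obtain ⟨s, hs, hvs⟩ := (mem_vset _ v).1 hv
  rcases Finset.mem_union.1 hs with h | h
  · have hv1 : v ∈ vset T₁ := (mem_vset T₁ v).2 ⟨s, h, hvs⟩
    have h3 := congrArg
      (fun r : {g : {v // v ∈ vset T₁} ↪ W // IsHom H T₁ g} => r.1 ⟨v, hv1⟩) h1
    exact h3
  · have hv2 : v ∈ vset T₂ := (mem_vset T₂ v).2 ⟨s, h, hvs⟩
    have h3 := congrArg
      (fun r : {g : {v // v ∈ vset T₂} ↪ W // IsHom H T₂ g} => r.1 ⟨v, hv2⟩) h2
    exact h3

lemma injCount_empty_le_one (H : SimpleGraph W) :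
    injCount H (∅ : Finset (EdgeSlot n)) ≤ 1 := by
  unfold injCount
  rw [Finite.card_le_one_iff_subsingleton]
  refine ⟨fun g g' => ?_⟩
  apply Subtype.ext
  apply DFunLike.ext
  intro v
  have hv : v.1 ∈ (∅ : Finset (Fin n)) := vset_empty (n := n) ▸ v.2
  exact absurd hv (Finset.notMem_empty _)

/-- **(Q1b)** A bound `inj(T,H) ≤ c^{|T|} n^{v_T}` for connected patterns extends to all
patterns. -/
theorem injCount_le_of_patConn (H : SimpleGraph W) (c : ℝ) (hc : 0 ≤ c)
    (hconn : ∀ T : Finset (EdgeSlot n), PatConn T →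
      (injCount H T : ℝ) ≤ c ^ T.card * (n : ℝ) ^ (vset T).card) :
    ∀ T : Finset (EdgeSlot n),
      (injCount H T : ℝ) ≤ c ^ T.card * (n : ℝ) ^ (vset T).card := by
  intro T
  induction T using Finset.strongInduction with
  | H T ih =>
    by_cases hT : T.Nonempty
    · by_cases hP : PatConn T
      · exact hconn T hP
      · have hP' : ∃ T₁ ⊆ T, T₁.Nonempty ∧ (T \ T₁).Nonempty ∧
            Disjoint (vset T₁) (vset (T \ T₁)) := by
          by_contra hcon
          apply hP
          refine ⟨hT, ?_⟩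
          intro T₁ hsub hne1 hne2 hdisj
          exact hcon ⟨T₁, hsub, hne1, hne2, hdisj⟩
        obtain ⟨T₁, hsub, hne1, hne2, hdisj⟩ := hP'
        have hss1 : T₁ ⊂ T := by
          refine Finset.ssubset_iff_subset_ne.2 ⟨hsub, ?_⟩
          intro heq
          rw [heq, Finset.sdiff_self] at hne2
          exact Finset.not_nonempty_empty hne2
        have hss2 : T \ T₁ ⊂ T := by
          refine Finset.ssubset_iff_subset_ne.2 ⟨Finset.sdiff_subset, ?_⟩
          intro heq
          obtain ⟨t, ht⟩ := hne1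
          have ht' : t ∈ T \ T₁ := by rw [heq]; exact hsub ht
          exact (Finset.mem_sdiff.1 ht').2 ht
        have h1 := ih T₁ hss1
        have h2 := ih (T \ T₁) hss2
        have hU : T₁ ∪ (T \ T₁) = T := Finset.union_sdiff_of_subset hsub
        have hcard : T₁.card + (T \ T₁).card = T.card := by
          rw [← Finset.card_union_of_disjoint Finset.disjoint_sdiff, hU]
        have hv : (vset T₁).card + (vset (T \ T₁)).card = (vset T).card := by
          rw [← Finset.card_union_of_disjoint hdisj, ← vset_union, hU]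
        have hle := injCount_union_le H T₁ (T \ T₁)
        rw [hU] at hle
        have hn0 : (0 : ℝ) ≤ (n : ℝ) := Nat.cast_nonneg _
        calc (injCount H T : ℝ)
            ≤ (injCount H T₁ : ℝ) * (injCount H (T \ T₁) : ℝ) := by exact_mod_cast hle
          _ ≤ (c ^ T₁.card * (n : ℝ) ^ (vset T₁).card)
                * (c ^ (T \ T₁).card * (n : ℝ) ^ (vset (T \ T₁)).card) :=
              mul_le_mul h1 h2 (Nat.cast_nonneg _)
                (mul_nonneg (pow_nonneg hc _) (pow_nonneg hn0 _))
          _ = c ^ T.card * (n : ℝ) ^ (vset T).card := by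
              rw [← hcard, ← hv, pow_add, pow_add]; ring
    · rw [Finset.not_nonempty_iff_eq_empty] at hT
      subst hT
      rw [vset_empty]
      simp only [Finset.card_empty, pow_zero, mul_one]
      exact_mod_cast injCount_empty_le_one H

/-- The map attached to an injective homomorphism of `T` into `H` is an embedding of `T` into
the copy `slots H f₀` of the host. -/
theorem extMap_mem_embs (H : SimpleGraph W) [DecidableRel H.Adj] (f₀ : W ↪ Fin n)
    (T : Finset (EdgeSlot n)) (g : {v // v ∈ vset T} ↪ W) (hg : IsHom H T g) :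
    extMap T f₀ g ∈ embs (slots H f₀) T := by
  rw [mem_embs]
  refine ⟨?_, ?_, ?_⟩
  · intro x hx
    unfold extMap
    rw [dif_neg hx]
  · intro x hx y hy hxy
    have hx' : x ∈ vset T := hx
    have hy' : y ∈ vset T := hy
    rw [extMap_of_mem T f₀ g x hx', extMap_of_mem T f₀ g y hy'] at hxy
    exact congrArg Subtype.val (g.injective (f₀.injective hxy))
  · rintro ⟨z, hz⟩ ht
    induction z using Sym2.ind with
    | _ a b =>
      have ha : a ∈ vset T := (mem_vset T a).2 ⟨⟨s(a, b), hz⟩, ht, Sym2.mem_mk_left _ _⟩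
      have hb : b ∈ vset T := (mem_vset T b).2 ⟨⟨s(a, b), hz⟩, ht, Sym2.mem_mk_right _ _⟩
      have hadj : H.Adj (g ⟨a, ha⟩) (g ⟨b, hb⟩) :=
        hg ⟨a, ha⟩ ⟨b, hb⟩ ⟨⟨s(a, b), hz⟩, ht, rfl⟩
      have hφa := extMap_of_mem T f₀ g a ha
      have hφb := extMap_of_mem T f₀ g b hb
      have hne : f₀ (g ⟨a, ha⟩) ≠ f₀ (g ⟨b, hb⟩) := fun h => hadj.ne (f₀.injective h)
      have hnd : ¬ (s(f₀ (g ⟨a, ha⟩), f₀ (g ⟨b, hb⟩)) : Sym2 (Fin n)).IsDiag := by
        rw [Sym2.mk_isDiag_iff]; exact hne
      refine ⟨⟨s(f₀ (g ⟨a, ha⟩), f₀ (g ⟨b, hb⟩)), hnd⟩, ?_, ?_⟩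
      · rw [mem_slots]
        exact ⟨g ⟨a, ha⟩, g ⟨b, hb⟩, hadj, rfl⟩
      · show (s(f₀ (g ⟨a, ha⟩), f₀ (g ⟨b, hb⟩)) : Sym2 (Fin n))
          = Sym2.map (extMap T f₀ g) s(a, b)
        rw [Sym2.map_mk, hφa, hφb]

/-- **(Q2)** The injective homomorphisms of `T` into `H` inject into the embeddings of `T` into
the copy `slots H f₀` of the host. -/
theorem injCount_le_card_embs (H : SimpleGraph W) [DecidableRel H.Adj] (f₀ : W ↪ Fin n)
    (T : Finset (EdgeSlot n)) : injCount H T ≤ (embs (slots H f₀) T).card := by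
  unfold injCount
  rw [← Nat.card_eq_finsetCard (embs (slots H f₀) T)]
  apply Nat.card_le_card_of_injective
    (fun g : {g : {v // v ∈ vset T} ↪ W // IsHom H T g} =>
      (⟨extMap T f₀ g.1, extMap_mem_embs H f₀ T g.1 g.2⟩ : {φ // φ ∈ embs (slots H f₀) T}))
  intro g g' hgg
  apply Subtype.ext
  apply DFunLike.ext
  intro v
  have h1 := congrArg (fun r : {φ // φ ∈ embs (slots H f₀) T} => r.1 v.1) hgg
  simp only at h1
  rw [extMap_of_mem T f₀ g.1 v.1 v.2, extMap_of_mem T f₀ g'.1 v.1 v.2] at h1
  exact f₀.injective h1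

end Crest.Agent.Helper84.S0076
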