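import Mathlib

/-!
# Kraft-type conflict lemma (row 55 / S0076, conditional infrastructure)

Leaf (P2) of the speculative formalisation of helper68's closure theorem
(`notes/s0076_helper68_closure.md`, step (C)): in a finite graph `G`, for a vertex `w` and `θ > 0`,

  `∑ over connected vertex sets B ∋ w of θ^(|B|-1) * (1+θ)^(-∑_{u ∈ B} deg u) ≤ 1`,

hence the number of connected `B ∋ w` with `|B| = v` and degree sum `D` is at most
`θ^(-(v-1)) * (1+θ)^D`.

Connectivity of `B` is expressed by paths from `w` inside `B`: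
`∀ x ∈ B, Relation.ReflTransGen (fun a b => G.Adj a b ∧ b ∈ B) w x`.

Proof: induction over exploration states (processed set `P`, frontier `F`).
-/

set_option autoImplicit false

namespace Crest.Agent.Helper84.S0076

open Finset

variable {V : Type*} [Fintype V] [DecidableEq V] (G : SimpleGraph V) [DecidableRel G.Adj]

open Classical in
/-- The exploration family of the state (processed `P`, frontier `F`): the sets `B ⊇ P ∪ F` all of
whose vertices outside `P` can be reached from the frontier by a path inside `B \ P`. -/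
noncomputable def explFam (P F : Finset V) : Finset (Finset V) :=
  Finset.univ.filter (fun B => P ∪ F ⊆ B ∧
    ∀ x ∈ B, x ∉ P → ∃ f ∈ F, Relation.ReflTransGen (fun a b => G.Adj a b ∧ b ∈ B ∧ b ∉ P) f x)

/-- The weight of a set `B` in the state `(P, F)`. -/
noncomputable def explWt (θ : ℝ) (P F B : Finset V) : ℝ :=
  θ ^ (B \ (P ∪ F)).card * ((1 + θ) ^ (∑ x ∈ B \ P, G.degree x))⁻¹

omit [DecidableRel G.Adj] in
lemma mem_explFam {P F B : Finset V} :
    B ∈ explFam G P F ↔ P ∪ F ⊆ B ∧
      ∀ x ∈ B, x ∉ P → ∃ f ∈ F, Relation.ReflTransGen (fun a b => G.Adj a b ∧ b ∈ B ∧ b ∉ P) f x := by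
  classical
  simp [explFam]

lemma explWt_nonneg (θ : ℝ) (hθ : 0 < θ) (P F B : Finset V) : 0 ≤ explWt G θ P F B := by
  unfold explWt
  have h1 : (0 : ℝ) < 1 + θ := by linarith
  positivity

omit [DecidableRel G.Adj] in
lemma explFam_empty (P : Finset V) : explFam G P ∅ = {P} := by
  ext B
  rw [mem_explFam, Finset.mem_singleton]
  constructor
  · rintro ⟨h1, h2⟩
    apply Finset.Subset.antisymm
    · intro x hx
      by_contra hxP
      obtain ⟨f, hf, -⟩ := h2 x hx hxP
      simp at hf
    · simpa using h1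
  · rintro rfl
    refine ⟨by simp, ?_⟩
    intro x hx hxP
    exact absurd hx hxP

lemma explSum_empty (θ : ℝ) (P : Finset V) :
    ∑ B ∈ explFam G P ∅, explWt G θ P ∅ B = 1 := by
  rw [explFam_empty, Finset.sum_singleton]
  simp [explWt]

/-- One exploration step: processing `u ∈ F`. -/
lemma explFam_step {P F : Finset V} {u : V} (hu : u ∈ F) {B : Finset V}
    (hB : B ∈ explFam G P F) :
    B ∈ explFam G (insert u P)
      (F.erase u ∪ ((G.neighborFinset u ∩ B) \ (P ∪ F))) := by
  rw [mem_explFam] at hB ⊢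
  obtain ⟨hsub, hreach⟩ := hB
  have hPB : P ⊆ B := (Finset.subset_union_left).trans hsub
  have hFB : F ⊆ B := (Finset.subset_union_right).trans hsub
  refine ⟨?_, ?_⟩
  · intro x hx
    simp only [Finset.mem_union, Finset.mem_insert, Finset.mem_erase, Finset.mem_sdiff,
      Finset.mem_inter] at hx
    rcases hx with (rfl | hx) | (⟨-, hx⟩ | ⟨⟨-, hx⟩, -⟩)
    · exact hFB hu
    · exact hPB hx
    · exact hFB hx
    · exact hx
  · intro x hxB hxP
    have hxu : x ≠ u := fun h => hxP (by simp [h])
    have hxP' : x ∉ P := fun h => hxP (by simp [h])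
    obtain ⟨f, hf, hpath⟩ := hreach x hxB hxP'
    -- the key induction along the path
    have key : ∀ y, Relation.ReflTransGen (fun a b => G.Adj a b ∧ b ∈ B ∧ b ∉ P) f y →
        (y = u ∨ ∃ f' ∈ F.erase u ∪ ((G.neighborFinset u ∩ B) \ (P ∪ F)),
          Relation.ReflTransGen (fun a b => G.Adj a b ∧ b ∈ B ∧ b ∉ insert u P) f' y) := by
      intro y hy
      induction hy with
      | refl =>
        by_cases hfu : f = u
        · exact Or.inl hfu
        · refine Or.inr ⟨f, ?_, Relation.ReflTransGen.refl⟩
          simp [hfu, hf]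
      | tail hab hbc ih =>
        rename_i b c
        obtain ⟨hadj, hcB, hcP⟩ := hbc
        by_cases hcu : c = u
        · exact Or.inl hcu
        · right
          rcases ih with rfl | ⟨f', hf', hp'⟩
          · -- `c` is a neighbour of `u` inside `B`, outside `P`
            refine ⟨c, ?_, Relation.ReflTransGen.refl⟩
            by_cases hcF : c ∈ F
            · simp [hcu, hcF]
            · simp [hcu, hcF, hcP, hcB, hadj]
          · refine ⟨f', hf', hp'.tail ⟨hadj, hcB, ?_⟩⟩
            simp [hcu, hcP]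
    rcases key x hpath with h | h
    · exact absurd h hxu
    · exact h

/-- Weight identity for one exploration step. -/
lemma explWt_step (θ : ℝ) {P F : Finset V} {u : V} (hu : u ∈ F) (huP : u ∉ P)
    {B : Finset V} (hB : B ∈ explFam G P F) :
    explWt G θ P F B =
      θ ^ ((G.neighborFinset u ∩ B) \ (P ∪ F)).card * ((1 + θ) ^ G.degree u)⁻¹ *
        explWt G θ (insert u P) (F.erase u ∪ ((G.neighborFinset u ∩ B) \ (P ∪ F))) B := by
  rw [mem_explFam] at hB
  obtain ⟨hsub, -⟩ := hB
  have hFB : F ⊆ B := (Finset.subset_union_right).trans hsub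
  set c := (G.neighborFinset u ∩ B) \ (P ∪ F) with hc
  have hcsub : c ⊆ B \ (P ∪ F) := by
    intro x hx
    simp only [hc, Finset.mem_sdiff, Finset.mem_inter] at hx
    simp only [Finset.mem_sdiff]
    exact ⟨hx.1.2, hx.2⟩
  have hunion : insert u P ∪ (F.erase u ∪ c) = (P ∪ F) ∪ c := by
    ext x
    simp only [Finset.mem_union, Finset.mem_insert, Finset.mem_erase]
    constructor
    · rintro ((rfl | h) | (⟨-, h⟩ | h))
      · exact Or.inl (Or.inr hu)
      · exact Or.inl (Or.inl h)
      · exact Or.inl (Or.inr h)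
      · exact Or.inr h
    · rintro ((h | h) | h)
      · exact Or.inl (Or.inr h)
      · by_cases hxu : x = u
        · exact Or.inl (Or.inl hxu)
        · exact Or.inr (Or.inl ⟨hxu, h⟩)
      · exact Or.inr (Or.inr h)
  have hcard : (B \ (P ∪ F)).card = c.card + (B \ (insert u P ∪ (F.erase u ∪ c))).card := by
    have hss : B \ ((P ∪ F) ∪ c) = (B \ (P ∪ F)) \ c := by
      ext x
      simp only [Finset.mem_sdiff, Finset.mem_union, not_or]
      tauto
    rw [hunion, hss]
    have := Finset.card_sdiff_add_card_eq_card hcsub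
    omega
  have huB : u ∈ B \ P := by
    simp only [Finset.mem_sdiff]
    exact ⟨hFB hu, huP⟩
  have hsum : ∑ x ∈ B \ P, G.degree x = G.degree u + ∑ x ∈ B \ insert u P, G.degree x := by
    rw [Finset.sdiff_insert]
    exact (Finset.add_sum_erase (B \ P) (fun x => G.degree x) huB).symm
  unfold explWt
  rw [hcard, hsum, pow_add, pow_add, mul_inv]
  ring

/-- The main inequality for exploration states. -/
theorem explSum_le_one (θ : ℝ) (hθ : 0 < θ) :
    ∀ (m : ℕ) (P F : Finset V), (Finset.univ \ P).card = m → Disjoint P F →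
      ∑ B ∈ explFam G P F, explWt G θ P F B ≤ 1 := by
  classical
  have h1θ : (1 : ℝ) ≤ 1 + θ := by linarith
  have h0θ : (0 : ℝ) < 1 + θ := by linarith
  intro m
  induction m with
  | zero =>
    intro P F hm hd
    have hP : P = Finset.univ := by
      have : Finset.univ \ P = ∅ := Finset.card_eq_zero.mp hm
      exact Finset.eq_univ_iff_forall.mpr (fun x => by
        by_contra hx
        have : x ∈ Finset.univ \ P := by simp [hx]
        simp_all)
    have hF : F = ∅ := by
      apply Finset.eq_empty_of_forall_notMem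
      intro x hx
      exact (Finset.disjoint_left.mp hd (by simp [hP])) hx
    subst hF
    exact (explSum_empty G θ P).le
  | succ m ih =>
    intro P F hm hd
    rcases F.eq_empty_or_nonempty with hF | ⟨u, hu⟩
    · subst hF
      exact (explSum_empty G θ P).le
    · have huP : u ∉ P := fun h => (Finset.disjoint_left.mp hd h) hu
      set N := G.neighborFinset u \ (P ∪ F) with hN
      have hmaps : ∀ B ∈ explFam G P F, (G.neighborFinset u ∩ B) \ (P ∪ F) ∈ N.powerset := by
        intro B _
        rw [Finset.mem_powerset]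
        intro x hx
        simp only [Finset.mem_sdiff, Finset.mem_inter] at hx
        simp only [hN, Finset.mem_sdiff]
        exact ⟨hx.1.1, hx.2⟩
      rw [← Finset.sum_fiberwise_of_maps_to hmaps]
      have hfib : ∀ c ∈ N.powerset,
          ∑ B ∈ (explFam G P F).filter (fun B => (G.neighborFinset u ∩ B) \ (P ∪ F) = c),
            explWt G θ P F B ≤ θ ^ c.card * ((1 + θ) ^ G.degree u)⁻¹ := by
        intro c hcN
        rw [Finset.mem_powerset] at hcN
        have hsubfam : (explFam G P F).filter (fun B => (G.neighborFinset u ∩ B) \ (P ∪ F) = c) ⊆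
            explFam G (insert u P) (F.erase u ∪ c) := by
          intro B hB
          rw [Finset.mem_filter] at hB
          have := explFam_step G hu hB.1
          rwa [hB.2] at this
        have hd' : Disjoint (insert u P) (F.erase u ∪ c) := by
          rw [Finset.disjoint_left]
          intro x hx hx'
          simp only [Finset.mem_insert] at hx
          simp only [Finset.mem_union, Finset.mem_erase] at hx'
          rcases hx with rfl | hx
          · rcases hx' with ⟨h, -⟩ | h
            · exact h rfl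
            · have := hcN h
              simp only [hN, Finset.mem_sdiff, Finset.mem_union, not_or] at this
              exact this.2.2 hu
          · rcases hx' with ⟨-, h⟩ | h
            · exact (Finset.disjoint_left.mp hd hx) h
            · have := hcN h
              simp only [hN, Finset.mem_sdiff, Finset.mem_union, not_or] at this
              exact this.2.1 hx
        have hcard' : (Finset.univ \ insert u P).card = m := by
          rw [Finset.sdiff_insert, Finset.card_erase_of_mem (by simp [huP]), hm]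
          rfl
        have hih := ih (insert u P) (F.erase u ∪ c) hcard' hd'
        calc ∑ B ∈ (explFam G P F).filter (fun B => (G.neighborFinset u ∩ B) \ (P ∪ F) = c),
              explWt G θ P F B
            = ∑ B ∈ (explFam G P F).filter (fun B => (G.neighborFinset u ∩ B) \ (P ∪ F) = c),
                θ ^ c.card * ((1 + θ) ^ G.degree u)⁻¹ *
                  explWt G θ (insert u P) (F.erase u ∪ c) B := by
              apply Finset.sum_congr rfl
              intro B hB
              rw [Finset.mem_filter] at hB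
              rw [explWt_step G θ hu huP hB.1, hB.2]
          _ = θ ^ c.card * ((1 + θ) ^ G.degree u)⁻¹ *
                ∑ B ∈ (explFam G P F).filter (fun B => (G.neighborFinset u ∩ B) \ (P ∪ F) = c),
                  explWt G θ (insert u P) (F.erase u ∪ c) B := by
              rw [Finset.mul_sum]
          _ ≤ θ ^ c.card * ((1 + θ) ^ G.degree u)⁻¹ *
                ∑ B ∈ explFam G (insert u P) (F.erase u ∪ c),
                  explWt G θ (insert u P) (F.erase u ∪ c) B := by
              apply mul_le_mul_of_nonneg_left _ (by positivity)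
              exact Finset.sum_le_sum_of_subset_of_nonneg hsubfam
                (fun B _ _ => explWt_nonneg G θ hθ _ _ B)
          _ ≤ θ ^ c.card * ((1 + θ) ^ G.degree u)⁻¹ * 1 := by
              apply mul_le_mul_of_nonneg_left hih (by positivity)
          _ = θ ^ c.card * ((1 + θ) ^ G.degree u)⁻¹ := by ring
      calc ∑ c ∈ N.powerset,
            ∑ B ∈ (explFam G P F).filter (fun B => (G.neighborFinset u ∩ B) \ (P ∪ F) = c),
              explWt G θ P F B
          ≤ ∑ c ∈ N.powerset, θ ^ c.card * ((1 + θ) ^ G.degree u)⁻¹ := Finset.sum_le_sum hfib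
        _ = (∑ c ∈ N.powerset, θ ^ c.card) * ((1 + θ) ^ G.degree u)⁻¹ := by
            rw [Finset.sum_mul]
        _ = (θ + 1) ^ N.card * ((1 + θ) ^ G.degree u)⁻¹ := by
            have := Finset.sum_pow_mul_eq_add_pow θ (1 : ℝ) N
            simp only [one_pow, mul_one] at this
            rw [this]
        _ ≤ 1 := by
            have hNle : N.card ≤ G.degree u := by
              rw [← G.card_neighborFinset_eq_degree u]
              exact Finset.card_le_card Finset.sdiff_subset
            have hpow : (θ + 1) ^ N.card ≤ (1 + θ) ^ G.degree u := by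
              rw [add_comm θ 1]
              exact pow_le_pow_right₀ h1θ hNle
            have hpos : (0 : ℝ) < (1 + θ) ^ G.degree u := by positivity
            rw [← div_eq_mul_inv, div_le_one hpos]
            exact hpow

/-- **Kraft conflict lemma, sum form.**  For any family `𝒮` of vertex sets that contain `w` and
are connected from `w` (every `x ∈ B` is reachable from `w` by a path inside `B`):
`∑_{B ∈ 𝒮} θ^(|B|-1) (1+θ)^(-∑_{u ∈ B} deg u) ≤ 1`. -/
theorem kraft_sum_le_one (w : V) (θ : ℝ) (hθ : 0 < θ) (𝒮 : Finset (Finset V))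
    (h𝒮 : ∀ B ∈ 𝒮, w ∈ B ∧
      ∀ x ∈ B, Relation.ReflTransGen (fun a b => G.Adj a b ∧ b ∈ B) w x) :
    ∑ B ∈ 𝒮, θ ^ (B.card - 1) * ((1 + θ) ^ (∑ u ∈ B, G.degree u))⁻¹ ≤ 1 := by
  classical
  have hsub : 𝒮 ⊆ explFam G ∅ {w} := by
    intro B hB
    obtain ⟨hw, hreach⟩ := h𝒮 B hB
    rw [mem_explFam]
    refine ⟨by simpa using hw, ?_⟩
    intro x hx _
    refine ⟨w, by simp, ?_⟩
    exact Relation.ReflTransGen.mono (fun a b h => ⟨h.1, h.2, by simp⟩) _ _ (hreach x hx)
  have hwt : ∀ B ∈ 𝒮, θ ^ (B.card - 1) * ((1 + θ) ^ (∑ u ∈ B, G.degree u))⁻¹ =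
      explWt G θ ∅ {w} B := by
    intro B hB
    obtain ⟨hw, -⟩ := h𝒮 B hB
    unfold explWt
    have h1 : (B \ (∅ ∪ {w})).card = B.card - 1 := by
      rw [Finset.empty_union, Finset.card_sdiff_of_subset (by simpa using hw)]
      simp
    rw [h1, Finset.sdiff_empty]
  calc ∑ B ∈ 𝒮, θ ^ (B.card - 1) * ((1 + θ) ^ (∑ u ∈ B, G.degree u))⁻¹
      = ∑ B ∈ 𝒮, explWt G θ ∅ {w} B := Finset.sum_congr rfl hwt
    _ ≤ ∑ B ∈ explFam G ∅ {w}, explWt G θ ∅ {w} B :=
        Finset.sum_le_sum_of_subset_of_nonneg hsub (fun B _ _ => explWt_nonneg G θ hθ _ _ B)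
    _ ≤ 1 := explSum_le_one G θ hθ _ ∅ {w} rfl (by simp)

/-- **Kraft conflict lemma, counting form.**  The number of vertex sets `B ∋ w`, connected from
`w` inside `B`, with `|B| = v` and degree sum `∑_{u ∈ B} deg u = D`, is at most
`θ^(-(v-1)) (1+θ)^D`. -/
theorem card_connected_le (w : V) (θ : ℝ) (hθ : 0 < θ) (v D : ℕ) (𝒮 : Finset (Finset V))
    (h𝒮 : ∀ B ∈ 𝒮, w ∈ B ∧
      (∀ x ∈ B, Relation.ReflTransGen (fun a b => G.Adj a b ∧ b ∈ B) w x) ∧
      B.card = v ∧ ∑ u ∈ B, G.degree u = D) :
    (𝒮.card : ℝ) ≤ (θ ^ (v - 1))⁻¹ * (1 + θ) ^ D := by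
  have h0θ : (0 : ℝ) < 1 + θ := by linarith
  have hsum := kraft_sum_le_one G w θ hθ 𝒮 (fun B hB => ⟨(h𝒮 B hB).1, (h𝒮 B hB).2.1⟩)
  have hconst : ∑ B ∈ 𝒮, θ ^ (B.card - 1) * ((1 + θ) ^ (∑ u ∈ B, G.degree u))⁻¹ =
      (𝒮.card : ℝ) * (θ ^ (v - 1) * ((1 + θ) ^ D)⁻¹) := by
    rw [← nsmul_eq_mul, ← Finset.sum_const]
    apply Finset.sum_congr rfl
    intro B hB
    rw [(h𝒮 B hB).2.2.1, (h𝒮 B hB).2.2.2]
  rw [hconst] at hsum
  have hpos1 : (0 : ℝ) < θ ^ (v - 1) := by positivity
  have hpos2 : (0 : ℝ) < (1 + θ) ^ D := by positivity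
  have hpos : (0 : ℝ) < θ ^ (v - 1) * ((1 + θ) ^ D)⁻¹ := by positivity
  calc (𝒮.card : ℝ) = (𝒮.card : ℝ) * (θ ^ (v - 1) * ((1 + θ) ^ D)⁻¹) *
        ((θ ^ (v - 1))⁻¹ * (1 + θ) ^ D) := by
        field_simp
    _ ≤ 1 * ((θ ^ (v - 1))⁻¹ * (1 + θ) ^ D) := by
        apply mul_le_mul_of_nonneg_right hsum (by positivity)
    _ = (θ ^ (v - 1))⁻¹ * (1 + θ) ^ D := by ring

omit [Fintype V] [DecidableRel G.Adj] in
/-- The image of a connected graph under a graph homomorphism is connected from the image of any
vertex (in the path form used above). -/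
theorem reach_image_of_connected {W : Type*} [Fintype W] [DecidableEq W] (T : SimpleGraph W)
    (hT : T.Connected) (φ : W → V) (hφ : ∀ a b, T.Adj a b → G.Adj (φ a) (φ b)) (r : W) :
    ∀ x ∈ Finset.univ.image φ,
      Relation.ReflTransGen (fun a b => G.Adj a b ∧ b ∈ Finset.univ.image φ) (φ r) x := by
  intro x hx
  obtain ⟨y, -, rfl⟩ := Finset.mem_image.mp hx
  have hreach : T.Reachable r y := hT.preconnected r y
  rw [SimpleGraph.reachable_iff_reflTransGen] at hreach
  exact Relation.ReflTransGen.lift (p := fun a b => G.Adj a b ∧ b ∈ Finset.univ.image φ) φ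
    (fun a b hab => ⟨hφ a b hab, Finset.mem_image_of_mem φ (Finset.mem_univ b)⟩) _ _ hreach

end Crest.Agent.Helper84.S0076
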